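import Vale.Agent.P323.Z.Basic

/-!
# Free adjunction of letters to a category: reduced words

A category `D`, a chain `a n` with maps `io n`, and a family of letters `t`, each with
an attaching map `al t : a (n t) ⟶ c t`, a functor `H t` (with action `hm t`) to types, and a natural map
`gam` from `H t` to maps out of `a (n t + 1)`.  Reduced words form a category `D[F]`.
-/

namespace Vale.Agent.P323.H533

open CategoryTheory Vale.Agent.P323.Z

universe v u w w'

set_option linter.checkUnivs false

/-- The data of a family of letters over a category with a chain. -/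
structure Letters (D : Type u) [Category.{v} D] where
  a : ℕ → D
  io : ∀ n, a n ⟶ a (n + 1)
  T : Type w
  n : T → ℕ
  c : T → D
  al : ∀ t, a (n t) ⟶ c t
  H : T → D → Type w'
  hm : ∀ t {x y : D}, (x ⟶ y) → H t x → H t y
  hm_id : ∀ t {x : D} (h : H t x), hm t (𝟙 x) h = h
  hm_comp : ∀ t {x y z : D} (f : x ⟶ y) (g : y ⟶ z) (h : H t x), hm t (f ≫ g) h = hm t g (hm t f h)
  gam : ∀ t {x : D}, H t x → (a (n t + 1) ⟶ x)
  gam_nat : ∀ t {x y : D} (f : x ⟶ y) (h : H t x), gam t (hm t f h) = gam t h ≫ f

namespace Letters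

variable {D : Type u} [Category.{v} D] (L : Letters.{v, u, w, w'} D)

/-- The map `beta` of a letter. -/
def bet (t : L.T) {x : D} (om : L.H t x) : L.a (L.n t) ⟶ x := L.io (L.n t) ≫ L.gam t om

theorem bet_nat (t : L.T) {x y : D} (f : x ⟶ y) (h : L.H t x) :
    L.bet t (L.hm t f h) = L.bet t h ≫ f := by
  simp [bet, gam_nat]

/-- Words with source `d`. -/
inductive W (d : D) : D → Type (max u v w w')
  | old {x : D} (f : d ⟶ x) : W d x
  | new {x : D} (t : L.T) (om : L.H t x) (w : W d (L.c t)) : W d x

variable {L}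

/-- Postcomposition of a word with an old map. -/
def W.post {d x y : D} (v : x ⟶ y) : L.W d x → L.W d y
  | .old f => .old (f ≫ v)
  | .new t om w => .new t (L.hm t v om) w

/-- Reduced words: no letter is followed by something that factors through its `al`. -/
def W.Red {d : D} : {x : D} → L.W d x → Prop
  | _, .old _ => True
  | _, .new t _ w => W.Red w ∧ ¬ ∃ w2 : L.W d (L.a (L.n t)), w2.post (L.al t) = w

variable (L)

/-- Standing hypotheses on `D` and the letters. -/
structure Good : Prop where
  mono : ∀ {x y : D} (f : x ⟶ y), Mono f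
  pb : ∀ {x y z : D} (f : x ⟶ z) (g : y ⟶ z), ∃ (P : D) (p : P ⟶ x) (q : P ⟶ y), IsPB p q f g
  io_ns : ∀ n, ¬ Thru (𝟙 (L.a (n + 1))) (L.io n)
  H_inj : ∀ (t : L.T) {x y : D} (f : x ⟶ y), Function.Injective (L.hm t f)
  H_pb : ∀ (t : L.T) {P x y z : D} {p : P ⟶ x} {q : P ⟶ y} {f : x ⟶ z} {g : y ⟶ z},
    IsPB p q f g → ∀ (h1 : L.H t x) (h2 : L.H t y),
      L.hm t f h1 = L.hm t g h2 →
      ∃ h : L.H t P, L.hm t p h = h1 ∧ L.hm t q h = h2

variable {L}

theorem W.post_id {d x : D} (z : L.W d x) : z.post (𝟙 x) = z := by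
  cases z <;> simp [W.post, L.hm_id]

theorem W.post_post {d x y z : D} (f : x ⟶ y) (g : y ⟶ z) (m : L.W d x) :
    (m.post f).post g = m.post (f ≫ g) := by
  cases m <;> simp [W.post, L.hm_comp]

theorem W.Red.post {d x y : D} {m : L.W d x} (h : m.Red) (f : x ⟶ y) : (m.post f).Red := by
  cases m with
  | old g => trivial
  | new t om w => exact h

theorem W.red_of_post {d x y : D} {m : L.W d x} {f : x ⟶ y} (h : (m.post f).Red) : m.Red := by
  cases m with
  | old g => trivial
  | new t om w => exact h

theorem Good.post_inj (hG : L.Good) {d x y : D} (f : x ⟶ y) :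
    Function.Injective (W.post f : L.W d x → L.W d y) := by
  intro m m' h
  have := hG.mono f
  cases m with
  | old g =>
    cases m' with
    | old g' =>
      simp only [W.post, W.old.injEq] at h
      rw [(cancel_mono f).1 h]
    | new t om w => simp [W.post] at h
  | new t om w =>
    cases m' with
    | old g' => simp [W.post] at h
    | new t' om' w' =>
      simp only [W.post, W.new.injEq] at h
      obtain ⟨rfl, h2, h3⟩ := h
      have h2' := hG.H_inj t f (eq_of_heq h2)
      subst h2'
      rw [eq_of_heq h3]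

open Classical in
/-- The smart constructor. -/
noncomputable def mkw (L : Letters.{v, u, w, w'} D) {d x : D} (t : L.T) (om : L.H t x)
    (m : L.W d (L.c t)) : L.W d x :=
  if h : ∃ w2 : L.W d (L.a (L.n t)), w2.post (L.al t) = m then h.choose.post (L.bet t om)
  else .new t om m

theorem Good.mkw_al (hG : L.Good) {d x : D} (t : L.T) (om : L.H t x)
    (m : L.W d (L.a (L.n t))) : mkw L t om (m.post (L.al t)) = m.post (L.bet t om) := by
  have h : ∃ w2 : L.W d (L.a (L.n t)), w2.post (L.al t) = m.post (L.al t) := ⟨m, rfl⟩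
  rw [mkw, dif_pos h]
  have := hG.post_inj (L.al t) h.choose_spec
  rw [this]

theorem mkw_new {d x : D} (t : L.T) (om : L.H t x)
    (m : L.W d (L.c t)) (h : ¬ ∃ w2 : L.W d (L.a (L.n t)), w2.post (L.al t) = m) :
    mkw L t om m = .new t om m := by
  rw [mkw, dif_neg h]

theorem mkw_red {d x : D} (t : L.T) (om : L.H t x)
    (m : L.W d (L.c t)) (h : m.Red) : (mkw L t om m).Red := by
  rw [mkw]
  split_ifs with h1
  · have := h1.choose_spec
    exact (W.red_of_post (this ▸ h)).post _
  · exact ⟨h, h1⟩

theorem Good.post_mkw (hG : L.Good) {d x y : D} (t : L.T) (om : L.H t x)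
    (m : L.W d (L.c t)) (v : x ⟶ y) : (mkw L t om m).post v = mkw L t (L.hm t v om) m := by
  by_cases h : ∃ w2 : L.W d (L.a (L.n t)), w2.post (L.al t) = m
  · obtain ⟨w2, rfl⟩ := h
    rw [hG.mkw_al, hG.mkw_al, W.post_post, L.bet_nat]
  · rw [mkw_new _ _ _ h, mkw_new _ _ _ h]; rfl

/-- Composition of words: `comp z m` is `z` followed by `m`. -/
noncomputable def comp {e d : D} (z : L.W e d) : {x : D} → L.W d x → L.W e x
  | _, .old f => z.post f
  | _, .new t om m => mkw L t om (comp z m)

@[simp] theorem comp_old {e d x : D} (z : L.W e d) (f : d ⟶ x) :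
    comp z (.old f) = z.post f := rfl

@[simp] theorem comp_new {e d x : D} (z : L.W e d) (t : L.T) (om : L.H t x)
    (m : L.W d (L.c t)) : comp z (.new t om m) = mkw L t om (comp z m) := rfl

theorem comp_red {e d x : D} {z : L.W e d} (hz : z.Red) (m : L.W d x) : (comp z m).Red := by
  induction m with
  | old f => exact hz.post f
  | new t om m ih => exact mkw_red _ _ _ ih

theorem Good.comp_post (hG : L.Good) {e d x y : D} (z : L.W e d) (m : L.W d x) (f : x ⟶ y) :
    comp z (m.post f) = (comp z m).post f := by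
  cases m with
  | old g => exact (W.post_post g f z).symm
  | new t om m => exact (hG.post_mkw t om (comp z m) f).symm

theorem Good.comp_mkw (hG : L.Good) {e d x : D} (z : L.W e d) (t : L.T) (om : L.H t x)
    (m : L.W d (L.c t)) : comp z (mkw L t om m) = mkw L t om (comp z m) := by
  by_cases h : ∃ w2 : L.W d (L.a (L.n t)), w2.post (L.al t) = m
  · obtain ⟨w2, rfl⟩ := h
    rw [hG.mkw_al, hG.comp_post, hG.comp_post, hG.mkw_al]
  · rw [mkw_new _ _ _ h, comp_new]

theorem Good.comp_assoc (hG : L.Good) {e d x y : D} (z : L.W e d) (z' : L.W d x) (m : L.W x y) :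
    comp z (comp z' m) = comp (comp z z') m := by
  induction m with
  | old f => simp [hG.comp_post]
  | new t om m ih => simp [hG.comp_mkw, ih]

theorem id_comp' {d x : D} (m : L.W d x) (h : m.Red) : comp (.old (𝟙 d)) m = m := by
  induction m with
  | old f => simp [W.post]
  | new t om m ih =>
    rw [comp_new, ih h.1, mkw_new _ _ _ h.2]

theorem comp_id' {d x : D} (m : L.W d x) : comp m (.old (𝟙 x)) = m := by
  simp [W.post_id]

end Letters

end Vale.Agent.P323.H533
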