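import Vale.Agent.P323.H533.Pull
import Vale.Agent.P323.H172.Inst
import Vale.Agent.P323.H142.Compose

/-!
# The words half of the successor step: `IsStage S a ι → Nonempty (WStep S a ι)`
-/

namespace Vale.Agent.P323.H533

open CategoryTheory Vale.Agent.P323.Z Vale.Agent.P323.H172 Vale.Agent.P323.H142

universe u

set_option linter.checkUnivs false

section

variable {S : Type u} [Category.{u} S] {a : ℕ → S} {ι : ∀ n, a n ⟶ a (n + 1)}
  (hS : IsStage S a ι)

open Letters

/-- The inclusion functor. -/
@[reducible] noncomputable def incF : S ⥤ WC (letters_good hS) where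
  obj x := ob (letters_good hS) x
  map f := inc (letters_good hS) f
  map_id _ := rfl
  map_comp _ _ := rfl

/-- The generator of a task. -/
noncomputable def wgen (τ : STask S a ι) :
    ob (letters_good hS) τ.c ⟶ ob (letters_good hS) τ.b :=
  G (letters_good hS) τ (om0 hS τ)

theorem bet_om0 (τ : STask S a ι) :
    (letters hS).bet τ (om0 hS τ) = ι τ.n ≫ τ.γ :=
  congrArg (fun z => ι τ.n ≫ z) (gam_om0 hS τ)

/-- Data of a new map. -/
theorem exists_snd {d b : S} (x : ob (letters_good hS) d ⟶ ob (letters_good hS) b) :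
    (∃ y, (incF hS).map y = x) ∨
      Nonempty (SND (incF hS) a ι (d := d) (b := b) x) := by
  rcases cases_hom (letters_good hS) x with ⟨g, rfl⟩ | ⟨t, om, m, hm, rfl⟩
  · exact Or.inl ⟨g, rfl⟩
  · right
    obtain ⟨P, p, q, hpq⟩ := new_old (letters_good hS) m ((letters hS).al t) (Or.inr hm)
    refine ⟨⟨STask.n t, (letters hS).gam t om, P, p, q, ?_, ?_, ?_, ?_⟩⟩
    · show inc (letters_good hS) p ≫ m ≫ G (letters_good hS) t om = _
      rw [← Category.assoc, hpq.1, al_G', ← inc_comp]
      rfl
    · intro e u y hu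
      by_cases h : Thru (u ≫ m) (inc (letters_good hS) ((letters hS).al t))
      · obtain ⟨k, hk⟩ := h
        obtain ⟨w, h1, -⟩ := hpq.2 u k hk.symm
        exact ⟨w, h1⟩
      · exact absurd ((Category.assoc _ _ _).trans hu) (new_ne (letters_good hS) t om h y)
    · intro e y
      by_cases h : ∃ om', (letters hS).hm t y om' = om
      · obtain ⟨om', rfl⟩ := h
        left
        refine ⟨⟨(letters hS).gam t om', ((letters hS).gam_nat t y om').symm⟩,
          m ≫ G (letters_good hS) t om', ?_⟩
        show (m ≫ G (letters_good hS) t om') ≫ inc (letters_good hS) y = _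
        rw [Category.assoc, G_inc]
      · right
        intro f u v huv
        by_cases hc : Thru (u ≫ m) (inc (letters_good hS) ((letters hS).al t))
        · obtain ⟨k, hk⟩ := hc
          obtain ⟨w, h1, -⟩ := hpq.2 u k hk.symm
          exact ⟨w, h1⟩
        · obtain ⟨om', h1, -⟩ := new_fac (letters_good hS) t om hc y v
            ((Category.assoc _ _ _).trans huv)
          exact absurd ⟨om', h1⟩ h
    · rintro ⟨k, hk⟩
      apply hm
      refine ⟨inc (letters_good hS) (k ≫ q), ?_⟩
      rw [inc_comp, Category.assoc, ← hpq.1, ← Category.assoc, ← inc_comp, hk, inc_id,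
        Category.id_comp]

/-- `f^A` is the letter `[A,1]`. -/
theorem fA_eq (τ : STask S a ι) {B : S} {A : B ⟶ τ.b} {om : (letters hS).H τ B}
    (h : (letters hS).hm τ A om = om0 hS τ)
    {fA : ob (letters_good hS) τ.c ⟶ ob (letters_good hS) B}
    (hf : fA ≫ inc (letters_good hS) A = wgen hS τ) : fA = G (letters_good hS) τ om := by
  apply inc_cancel (letters_good hS) A
  refine hf.trans (((G_inc (letters_good hS) (L := letters hS) τ om A).trans ?_).symm)
  rw [h]
  rfl

include hS in
/-- The words half of the step. -/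
theorem exists_wstep : Nonempty (WStep S a ι) := by
  let hG := letters_good hS
  refine ⟨⟨WC hG, incF hS, ?_, ?_, ?_, ?_, ?_, ?_, ?_, fun τ => wgen hS τ, ?_, ?_, ?_, ?_, ?_,
    ?_, ?_⟩⟩
  · -- inj
    intro x y h
    exact congrArg WC.un h
  · -- surj
    intro x
    exact ⟨x.un, rfl⟩
  · -- faithful
    intro x y f g h
    exact inc_inj hG h
  · -- pb
    intro z x y b p q f g h
    exact inc_pb hG h
  · -- div
    intro x y z u g h e
    obtain ⟨z', h1, -⟩ := old_div hG u g h e
    exact ⟨z', h1.symm⟩
  · -- stage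
    refine ⟨?_, ?_, ?_, ?_⟩
    · intro x y f
      exact mono_WC hG f
    · intro x y b f g
      obtain ⟨P, p, q, h⟩ := pb_all hG (d := x.un) (y := b.un) f (d' := y.un) g
      exact ⟨ob hG P, p, q, h⟩
    · intro n
      exact iota_ns hG n
    · intro x
      obtain ⟨f⟩ := hS.from_a0 x.un
      exact ⟨inc hG f⟩
  · -- nd
    intro d b x
    exact exists_snd hS x
  · -- gen_α
    intro τ
    exact (al_G hG (L := letters hS) τ (om0 hS τ)).trans (congrArg (inc hG) (bet_om0 hS τ))
  · -- gen_inv
    intro τ d s t h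
    obtain ⟨om, h1, h2⟩ := om_of_rel hS τ h
    refine ⟨G hG τ om, ?_, ?_⟩
    · exact (G_inc hG (L := letters hS) τ om s).trans (congrArg (G hG (L := letters hS) τ) h1)
    · exact (G_inc hG (L := letters hS) τ om t).trans (congrArg (G hG (L := letters hS) τ) h2)
  · -- G1
    intro τ B A hA fA γA hfA hγA b' e y y' f t s hts
    obtain ⟨om, h1, h2⟩ := exists_omA hS τ hA
    have e1 := fA_eq hS τ h1 hfA
    subst e1
    by_cases ht : Thru t (inc hG ((letters hS).al τ))
    · exact Or.inl ht
    · right
      have e2 : t ≫ G hG τ ((letters hS).hm τ y om) = s ≫ inc hG y' :=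
        (congrArg (fun z => t ≫ z) (G_inc hG (L := letters hS) τ om y)).symm.trans hts
      obtain ⟨om', h3, -⟩ := new_fac hG τ _ ht y' s e2
      refine ⟨(letters hS).gam τ om', ?_⟩
      rw [← h2 γA hγA]
      exact ((letters hS).gam_nat τ y' om').symm.trans
        ((congrArg ((letters hS).gam τ) h3).trans ((letters hS).gam_nat τ y om))
  · -- G3
    intro τ d p N h hp f g s hgs
    by_cases hs : Thru s (inc hG ((letters hS).al τ))
    · exact Or.inr hs
    left
    rcases cases_hom hG (x := τ.b) p with ⟨p0, hp0⟩ | ⟨t, om, m, hm, hp0⟩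
    · exfalso
      apply N.N2
      obtain ⟨k, hk⟩ := N.N0 (e := d) (𝟙 _) p0 (by
        rw [Category.id_comp]; exact hp0)
      obtain ⟨k', h1, h2⟩ := old_div hG k N.π (𝟙 _) hk
      exact ⟨k', h2⟩
    · subst hp0
      obtain ⟨P, p1, q1, hpq⟩ := new_old hG m ((letters hS).al t) (Or.inr hm)
      by_cases hg : Thru (g ≫ m) (inc hG ((letters hS).al t))
      · obtain ⟨k, hk⟩ := hg
        obtain ⟨w, h1, h2⟩ := hpq.2 g k hk.symm
        obtain ⟨w', h3⟩ := N.N0 (e := P) (inc hG p1) (q1 ≫ (letters hS).bet t om) (by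
          show inc hG p1 ≫ m ≫ G hG t om = _
          rw [← Category.assoc, hpq.1, al_G', ← inc_comp])
        refine ⟨w ≫ w', ?_⟩
        rw [Category.assoc, h3, h1]
      · exfalso
        have e1 : (g ≫ m) ≫ G hG t om = s ≫ G hG τ (om0 hS τ) := by
          rw [Category.assoc]; exact hgs
        obtain ⟨ht, h1, h2⟩ := nf_inj hG hg hs e1
        subst ht
        simp only at h1 h2
        subst h1 h2
        -- now `h ≫ m ≫ G = γ`
        by_cases hh : Thru (h ≫ m) (inc hG ((letters hS).al t))
        · obtain ⟨k, hk⟩ := hh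
          have e2 : k ≫ inc hG ((letters hS).bet t (om0 hS t)) = inc hG t.γ := by
            rw [← al_G', hk, Category.assoc]; exact hp
          obtain ⟨k', h3, h4⟩ := old_div hG k _ _ e2
          apply hS.ι_not t.n
          refine ⟨k', ?_⟩
          have h5 : k' ≫ ι t.n ≫ t.γ = t.γ :=
            (congrArg (fun z => k' ≫ z) (bet_om0 hS t)).symm.trans h4
          have := hS.mono t.γ
          exact (cancel_mono t.γ).1 ((Category.assoc _ _ _).trans
            (h5.trans (Category.id_comp t.γ).symm))
        · refine absurd ?_ (new_ne hG t (om0 hS t) hh t.γ)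
          rw [Category.assoc]
          exact hp
  · -- G4
    intro τ d p
    by_cases h : ∃ om, (letters hS).hm τ p om = om0 hS τ
    · obtain ⟨om, h⟩ := h
      exact Or.inl (rel_of_hm hS τ om h)
    · right
      intro f g s hgs
      by_contra hs
      obtain ⟨om', h1, -⟩ := new_fac hG τ (om0 hS τ) hs p g hgs.symm
      exact h ⟨om', h1⟩
  · -- G5
    intro τ B B' d A A' hA hA' fA fA' hfA hfA' u u' f s t hst
    obtain ⟨om, h1, -⟩ := exists_omA hS τ hA
    obtain ⟨om', h2, -⟩ := exists_omA hS τ hA'
    have e1 := fA_eq hS τ h1 hfA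
    have e2 := fA_eq hS τ h2 hfA'
    subst e1 e2
    by_cases hs : Thru s (inc hG ((letters hS).al τ))
    · exact Or.inl hs
    by_cases ht : Thru t (inc hG ((letters hS).al τ))
    · exact Or.inr (Or.inl ht)
    right; right
    have e3 : s ≫ G hG τ ((letters hS).hm τ u om) = t ≫ G hG τ ((letters hS).hm τ u' om') :=
      (congrArg (fun z => s ≫ z) (G_inc hG (L := letters hS) τ om u)).symm.trans
        (hst.trans (congrArg (fun z => t ≫ z) (G_inc hG (L := letters hS) τ om' u')))
    obtain ⟨h3, h4⟩ := nf_inj' hG hs ht e3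
    exact ⟨h4, rel_of_hm_eq hS τ hA hA' om om' h1 h2 h3⟩
  · -- G6
    intro τ f s y hsy
    by_contra hs
    exact new_ne hG τ (om0 hS τ) hs y hsy

end

end Vale.Agent.P323.H533
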