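import Vale.Agent.P323.H533.Words

/-!
# The category of reduced words `D[F]` and its normal form calculus
-/

namespace Vale.Agent.P323.H533

open CategoryTheory Vale.Agent.P323.Z

universe v u w w'

set_option linter.checkUnivs false

namespace Letters

variable {D : Type u} [Category.{v} D] {L : Letters.{v, u, w, w'} D}

/-- The category `D[F]`: same objects as `D`. -/
structure WC (hG : L.Good) : Type u where
  /-- an object of `D` as an object of `D[F]` -/
  ob ::
  /-- the underlying object -/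
  un : D

/-- The maps of `D[F]`: reduced words. -/
@[ext] structure WHom (hG : L.Good) (x y : WC hG) : Type (max u v w w') where
  val : L.W x.un y.un
  red : val.Red

variable (hG : L.Good)

noncomputable instance instCatWC : Category.{max u v w w'} (WC hG) where
  Hom x y := WHom hG x y
  id x := ⟨.old (𝟙 x.un), trivial⟩
  comp f g := ⟨comp f.val g.val, comp_red f.red g.val⟩
  id_comp f := WHom.ext (id_comp' f.val f.red)
  comp_id f := WHom.ext (comp_id' f.val)
  assoc f g h := WHom.ext (hG.comp_assoc f.val g.val h.val).symm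

/-- An object of `D` as an object of `D[F]`. -/
abbrev ob (x : D) : WC hG := ⟨x⟩

/-- The underlying word of a map. -/
def wd {x y : WC hG} (f : x ⟶ y) : L.W x.un y.un := WHom.val f

theorem wd_red {x y : WC hG} (f : x ⟶ y) : (wd hG f).Red := WHom.red f

/-- A reduced word as a map. -/
def mkh {x y : WC hG} (f : L.W x.un y.un) (h : f.Red) : x ⟶ y := WHom.mk f h

theorem wd_mkh {x y : WC hG} (f : L.W x.un y.un) (h : f.Red) : wd hG (mkh hG f h) = f := rfl

theorem mkh_wd {x y : WC hG} (f : x ⟶ y) : mkh hG (wd hG f) (wd_red hG f) = f := rfl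

theorem wd_inj {x y : WC hG} {f g : x ⟶ y} (h : wd hG f = wd hG g) : f = g := WHom.ext h

/-- An old map as a map of `D[F]`. -/
def inc {x y : D} (f : x ⟶ y) : ob hG x ⟶ ob hG y := mkh hG (.old f) trivial

/-- The maps named by a letter. -/
noncomputable def G (t : L.T) {x : D} (om : L.H t x) : ob hG (L.c t) ⟶ ob hG x :=
  mkh hG (mkw L t om (.old (𝟙 _))) (mkw_red _ _ _ trivial)

theorem inc_id (x : D) : inc hG (𝟙 x) = 𝟙 (ob hG x) := rfl

theorem inc_comp {x y z : D} (f : x ⟶ y) (g : y ⟶ z) :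
    inc hG (f ≫ g) = inc hG f ≫ inc hG g := rfl

theorem wd_inc {x y : D} (f : x ⟶ y) : wd hG (inc hG f) = .old f := rfl

theorem wd_comp {x y z : WC hG} (f : x ⟶ y) (g : y ⟶ z) :
    wd hG (f ≫ g) = comp (wd hG f) (wd hG g) := rfl

theorem wd_comp_inc {x : WC hG} {y z : D} (f : x ⟶ ob hG y) (g : y ⟶ z) :
    wd hG (f ≫ inc hG g) = (wd hG f).post g := rfl

theorem wd_comp_G {d : WC hG} (t : L.T) {x : D} (om : L.H t x) (m : d ⟶ ob hG (L.c t)) :
    wd hG (m ≫ G hG t om) = mkw L t om (wd hG m) := by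
  rw [wd_comp, G, wd_mkh, hG.comp_mkw, comp_id']

theorem inc_inj {x y : D} {f g : x ⟶ y} (h : inc hG f = inc hG g) : f = g := by
  have := congrArg (wd hG) h
  rw [wd_inc, wd_inc] at this
  injection this

theorem thru_al_iff {d : WC hG} (t : L.T) (m : d ⟶ ob hG (L.c t)) :
    Thru m (inc hG (L.al t)) ↔ ∃ w2 : L.W d.un (L.a (L.n t)), w2.post (L.al t) = wd hG m := by
  constructor
  · rintro ⟨h, rfl⟩
    exact ⟨wd hG h, rfl⟩
  · rintro ⟨w2, h⟩
    have hr : w2.Red := W.red_of_post (h ▸ wd_red hG m)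
    exact ⟨mkh hG w2 hr, wd_inj hG h⟩

theorem al_G (t : L.T) {x : D} (om : L.H t x) :
    inc hG (L.al t) ≫ G hG t om = inc hG (L.bet t om) := by
  apply wd_inj
  rw [wd_comp_G, wd_inc, wd_inc]
  have := hG.mkw_al (d := L.a (L.n t)) t om (.old (𝟙 _))
  simpa only [W.post, Category.id_comp] using this

theorem G_inc (t : L.T) {x y : D} (om : L.H t x) (f : x ⟶ y) :
    G hG t om ≫ inc hG f = G hG t (L.hm t f om) := by
  apply wd_inj
  rw [wd_comp_inc]
  exact hG.post_mkw _ _ _ _

/-- Every map of `D[F]` is old or `m ≫ G t om` in normal form. -/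
theorem cases_hom {d : WC hG} {x : D} (f : d ⟶ ob hG x) :
    (∃ g : d.un ⟶ x, f = inc hG g) ∨
    ∃ (t : L.T) (om : L.H t x) (m : d ⟶ ob hG (L.c t)),
      ¬ Thru m (inc hG (L.al t)) ∧ f = m ≫ G hG t om := by
  obtain ⟨f, hf⟩ := f
  cases f with
  | old g => exact Or.inl ⟨g, rfl⟩
  | new t om m =>
    refine Or.inr ⟨t, om, mkh hG m hf.1, ?_, ?_⟩
    · rw [thru_al_iff]; exact hf.2
    · apply wd_inj
      rw [wd_comp_G, wd_mkh, mkw_new _ _ _ hf.2]; rfl

/-- Induction on normal forms. -/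
theorem ind_hom {d : WC hG} {P : ∀ {x : D}, (d ⟶ ob hG x) → Prop}
    (h1 : ∀ {x : D} (g : d.un ⟶ x), P (x := x) (inc hG g))
    (h2 : ∀ {x : D} (t : L.T) (om : L.H t x) (m : d ⟶ ob hG (L.c t)),
      ¬ Thru m (inc hG (L.al t)) → P m → P (m ≫ G hG t om))
    {x : D} (f : d ⟶ ob hG x) : P f := by
  suffices h : ∀ (x : D) (f : L.W d.un x) (hf : f.Red), P (x := x) (mkh hG f hf) from
    h x (wd hG f) (wd_red hG f)
  intro x f
  induction f with
  | old g => intro _; exact h1 g
  | new t om m ih =>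
    intro hf
    have := h2 t om (mkh hG m hf.1) (by rw [thru_al_iff]; exact hf.2) (ih hf.1)
    have e : (mkh hG m hf.1 : d ⟶ ob hG (L.c t)) ≫ G hG t om = mkh hG (.new t om m) hf := by
      apply wd_inj
      rw [wd_comp_G, wd_mkh, wd_mkh, mkw_new _ _ _ hf.2]
    rwa [e] at this

theorem new_val {d : WC hG} {x : D} (t : L.T) (om : L.H t x) {m : d ⟶ ob hG (L.c t)}
    (h : ¬ Thru m (inc hG (L.al t))) : wd hG (m ≫ G hG t om) = .new t om (wd hG m) := by
  rw [wd_comp_G, mkw_new]
  rwa [thru_al_iff] at h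

/-- Uniqueness of normal forms. -/
theorem nf_inj {d : WC hG} {x : D} {t t' : L.T} {om : L.H t x} {om' : L.H t' x}
    {m : d ⟶ ob hG (L.c t)} {m' : d ⟶ ob hG (L.c t')}
    (h : ¬ Thru m (inc hG (L.al t))) (h' : ¬ Thru m' (inc hG (L.al t')))
    (e : m ≫ G hG t om = m' ≫ G hG t' om') : ∃ ht : t = t', ht ▸ om = om' ∧ ht ▸ m = m' := by
  have e1 := congrArg (wd hG) e
  rw [new_val hG t om h, new_val hG t' om' h'] at e1
  injection e1 with _ h1 h2 h3
  subst h1
  exact ⟨rfl, eq_of_heq h2, wd_inj hG (eq_of_heq h3)⟩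

theorem nf_inj' {d : WC hG} {x : D} {t : L.T} {om om' : L.H t x}
    {m m' : d ⟶ ob hG (L.c t)}
    (h : ¬ Thru m (inc hG (L.al t))) (h' : ¬ Thru m' (inc hG (L.al t)))
    (e : m ≫ G hG t om = m' ≫ G hG t om') : om = om' ∧ m = m' := by
  have e1 := congrArg (wd hG) e
  rw [new_val hG t om h, new_val hG t om' h'] at e1
  injection e1 with _ _ h2 h3
  exact ⟨h2, wd_inj hG h3⟩

/-- A new normal form is not old. -/
theorem new_ne {d x : D} (t : L.T) (om : L.H t x) {m : ob hG d ⟶ ob hG (L.c t)}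
    (h : ¬ Thru m (inc hG (L.al t))) (g : d ⟶ x) : m ≫ G hG t om ≠ inc hG g := by
  intro e
  have e1 := congrArg (wd hG) e
  rw [new_val hG t om h, wd_inc] at e1
  cases e1

/-- A new normal form that ends with an old map. -/
theorem new_fac {d : WC hG} {x y : D} (t : L.T) (om : L.H t y) {m : d ⟶ ob hG (L.c t)}
    (h : ¬ Thru m (inc hG (L.al t))) (f : x ⟶ y) (z : d ⟶ ob hG x)
    (e : m ≫ G hG t om = z ≫ inc hG f) :
    ∃ om' : L.H t x, L.hm t f om' = om ∧ z = m ≫ G hG t om' := by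
  rcases cases_hom hG z with ⟨g, rfl⟩ | ⟨t', om', m', h', rfl⟩
  · exact absurd e (new_ne hG t om h (g ≫ f))
  · rw [Category.assoc, G_inc] at e
    obtain ⟨rfl, h1, h2⟩ := nf_inj hG h h' e
    simp only at h1 h2
    subst h1 h2
    exact ⟨om', rfl, rfl⟩

/-- (E3): if a composite and its second factor are old, so is the first factor. -/
theorem old_div {d x y : D} (z : ob hG d ⟶ ob hG x) (f : x ⟶ y) (g : d ⟶ y)
    (e : z ≫ inc hG f = inc hG g) : ∃ z' : d ⟶ x, z = inc hG z' ∧ z' ≫ f = g := by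
  rcases cases_hom hG z with ⟨z', rfl⟩ | ⟨t', om', m', h', rfl⟩
  · exact ⟨z', rfl, inc_inj hG e⟩
  · rw [Category.assoc, G_inc] at e
    exact absurd e (new_ne hG t' _ h' g)

include hG in
/-- (split): `beta` is never split. -/
theorem split {t : L.T} {x : D} (om : L.H t x) (h : L.H t (L.a (L.n t))) :
    L.hm t (L.bet t om) h ≠ om := by
  intro e
  have h1 : L.bet t om = L.bet t h ≫ L.bet t om := by
    conv_lhs => rw [← e]
    rw [L.bet_nat]
  have := hG.mono (L.bet t om)
  have h2 : L.bet t h = 𝟙 _ := by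
    rw [← cancel_mono (L.bet t om), ← h1, Category.id_comp]
  apply hG.io_ns (L.n t)
  refine ⟨L.gam t h, ?_⟩
  have h3 : L.io (L.n t) ≫ L.gam t h = 𝟙 _ := h2
  have := hG.mono (L.gam t h)
  rw [← cancel_mono (L.gam t h), Category.assoc, h3]
  simp

include hG in
/-- Two-sided version of (split). -/
theorem split2 {t t' : L.T} {x : D} (om : L.H t x) (om' : L.H t' x)
    (h : L.H t (L.a (L.n t'))) (h' : L.H t' (L.a (L.n t)))
    (e : L.hm t (L.bet t' om') h = om) (e' : L.hm t' (L.bet t om) h' = om') : False := by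
  have h1 : L.bet t om = L.bet t h ≫ L.bet t' om' := by
    conv_lhs => rw [← e]
    rw [L.bet_nat]
  have h2 : L.bet t' om' = L.bet t' h' ≫ L.bet t om := by
    conv_lhs => rw [← e']
    rw [L.bet_nat]
  apply split hG om (L.hm t (L.bet t' h') h)
  rw [← L.hm_comp, ← h2, e]

/-- Left cancellation for the generators. -/
theorem G_cancel {d : WC hG} {x : D} (t : L.T) (om : L.H t x) {m m' : d ⟶ ob hG (L.c t)}
    (e : m ≫ G hG t om = m' ≫ G hG t om) : m = m' := by
  by_cases h : Thru m (inc hG (L.al t))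
  · by_cases h' : Thru m' (inc hG (L.al t))
    · obtain ⟨k, rfl⟩ := h
      obtain ⟨k', rfl⟩ := h'
      rw [Category.assoc, Category.assoc, al_G] at e
      have : k = k' := wd_inj hG (hG.post_inj (L.bet t om) (congrArg (wd hG) e))
      rw [this]
    · obtain ⟨k, rfl⟩ := h
      rw [Category.assoc, al_G] at e
      obtain ⟨om', h1, -⟩ := new_fac hG t om h' _ _ e.symm
      exact absurd h1 (split hG om om')
  · by_cases h' : Thru m' (inc hG (L.al t))
    · obtain ⟨k, rfl⟩ := h'
      rw [Category.assoc k, al_G] at e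
      obtain ⟨om', h1, -⟩ := new_fac hG t om h _ _ e
      exact absurd h1 (split hG om om')
    · exact (nf_inj' hG h h' e).2

theorem inc_cancel {d : WC hG} {x y : D} (f : x ⟶ y) {m m' : d ⟶ ob hG x}
    (e : m ≫ inc hG f = m' ≫ inc hG f) : m = m' :=
  wd_inj hG (hG.post_inj f (congrArg (wd hG) e))

/-- All maps of `D[F]` are mono. -/
theorem mono_WC {d : WC hG} {x : D} (f : d ⟶ ob hG x) : Mono f := by
  constructor
  intro e m m' h
  revert h
  refine ind_hom hG (P := fun {x} f => m ≫ f = m' ≫ f → m = m') ?_ ?_ f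
  · intro x g h
    exact inc_cancel hG g h
  · intro x t om k _ ih h
    rw [← Category.assoc, ← Category.assoc] at h
    exact ih (G_cancel hG t om h)

end Letters

end Vale.Agent.P323.H533
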