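import Vale.Agent.P323.H533.Cat

/-!
# Pullbacks in `D[F]`
-/

namespace Vale.Agent.P323.H533

open CategoryTheory Vale.Agent.P323.Z

universe v u w w'

set_option linter.checkUnivs false

namespace Letters

variable {D : Type u} [Category.{v} D] {L : Letters.{v, u, w, w'} D} (hG : L.Good)

theorem al_G' {d : WC hG} (t : L.T) {x : D} (om : L.H t x) (k : d ⟶ ob hG (L.a (L.n t))) :
    (k ≫ inc hG (L.al t)) ≫ G hG t om = k ≫ inc hG (L.bet t om) := by
  rw [Category.assoc, al_G]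

/-- `D ⥤ D[F]` preserves pullback squares. -/
theorem inc_pb {P x y b : D} {p : P ⟶ x} {q : P ⟶ y} {f : x ⟶ b} {g : y ⟶ b}
    (h : IsPB p q f g) : IsPB (inc hG p) (inc hG q) (inc hG f) (inc hG g) := by
  refine ⟨?_, ?_⟩
  · rw [← inc_comp, ← inc_comp, h.1]
  · intro e u v huv
    rcases cases_hom hG u with ⟨u0, rfl⟩ | ⟨t, om, m, hm, rfl⟩
    · obtain ⟨v0, rfl, hv⟩ := old_div hG v g (u0 ≫ f) huv.symm
      obtain ⟨w, h1, h2⟩ := h.2 u0 v0 hv.symm
      exact ⟨inc hG w, by rw [← inc_comp, h1], by rw [← inc_comp, h2]⟩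
    · rw [Category.assoc, G_inc] at huv
      obtain ⟨om', h1, rfl⟩ := new_fac hG t _ hm g v huv
      obtain ⟨om2, h2, h3⟩ := hG.H_pb t h om om' h1.symm
      refine ⟨m ≫ G hG t om2, ?_, ?_⟩
      · rw [Category.assoc, G_inc, h2]
      · rw [Category.assoc, G_inc, h3]

/-- Pullback of a map `x` and an old map `v` such that `x` is old or does not factor
through `v`: both projections are old. -/
theorem new_old {d : D} {y : D} (x : ob hG d ⟶ ob hG y) : ∀ {e : D} (v : e ⟶ y),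
    ((∃ u, x = inc hG u) ∨ ¬ Thru x (inc hG v)) →
    ∃ (P : D) (p : P ⟶ d) (q : P ⟶ e), IsPB (inc hG p) (inc hG q) x (inc hG v) := by
  refine ind_hom hG (P := fun {y} x => ∀ {e : D} (v : e ⟶ y),
    ((∃ u, x = inc hG u) ∨ ¬ Thru x (inc hG v)) →
    ∃ (P : D) (p : P ⟶ d) (q : P ⟶ e), IsPB (inc hG p) (inc hG q) x (inc hG v)) ?_ ?_ x
  · intro y g e v _
    obtain ⟨P, p, q, h⟩ := hG.pb (show d ⟶ y from g) v
    exact ⟨P, p, q, inc_pb hG h⟩
  · intro y t om m hm ih e v hx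
    have hx' : ¬ Thru (m ≫ G hG t om) (inc hG v) := by
      rcases hx with ⟨u, hu⟩ | hx
      · exact absurd hu (new_ne hG t om hm u)
      · exact hx
    obtain ⟨P0, g, h, hgh⟩ := hG.pb (L.bet t om) v
    obtain ⟨P, p, q, hpq⟩ := ih (g ≫ L.al t) (Or.inr (by
      rintro ⟨k, hk⟩
      exact hm ⟨k ≫ inc hG g, by rw [← hk, inc_comp, Category.assoc]⟩))
    refine ⟨P, p, q ≫ h, ?_, ?_⟩
    · rw [← Category.assoc, hpq.1, inc_comp, ← Category.assoc, al_G', Category.assoc,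
        ← inc_comp, hgh.1, inc_comp, inc_comp, Category.assoc]
    · intro e' a b hab
      rw [← Category.assoc] at hab
      by_cases hc : Thru (a ≫ m) (inc hG (L.al t))
      · obtain ⟨k, hk⟩ := hc
        rw [← hk, al_G'] at hab
        obtain ⟨w, h1, h2⟩ := (inc_pb hG hgh).2 k b hab
        obtain ⟨w', h3, h4⟩ := hpq.2 a w (by
          rw [← hk, ← h1, inc_comp, Category.assoc])
        exact ⟨w', h3, by rw [inc_comp, ← Category.assoc, h4, h2]⟩
      · obtain ⟨om', h1, -⟩ := new_fac hG t om hc v b hab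
        exact absurd ⟨m ≫ G hG t om', by rw [Category.assoc, G_inc, h1]⟩ hx'

/-- Pullbacks of an arbitrary map and an old map. -/
theorem pb_old {d : D} {y : D} (x : ob hG d ⟶ ob hG y) {e : D} (v : e ⟶ y) :
    ∃ (P : D) (p : ob hG P ⟶ ob hG d) (q : ob hG P ⟶ ob hG e), IsPB p q x (inc hG v) := by
  by_cases h : Thru x (inc hG v)
  · obtain ⟨k, rfl⟩ := h
    refine ⟨d, 𝟙 _, k, Category.id_comp _, ?_⟩
    intro e' a b hab
    refine ⟨a, Category.comp_id _, ?_⟩
    rw [← Category.assoc] at hab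
    exact inc_cancel hG v hab
  · obtain ⟨P, p, q, h⟩ := new_old hG x v (Or.inr h)
    exact ⟨P, inc hG p, inc hG q, h⟩

theorem not_thru_bet {d : D} {y : D} (t : L.T) (om : L.H t y) {m : ob hG d ⟶ ob hG (L.c t)}
    (hm : ¬ Thru m (inc hG (L.al t))) : ¬ Thru (m ≫ G hG t om) (inc hG (L.bet t om)) := by
  rintro ⟨k, hk⟩
  obtain ⟨om', h1, -⟩ := new_fac hG t om hm _ k hk.symm
  exact split hG om om' h1

/-- The case where the first head factors through the `beta` of the second. -/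
theorem pb_caseB {d d' y : D} {t t' : L.T} {om : L.H t y} {om' : L.H t' y}
    (m : ob hG d ⟶ ob hG (L.c t)) {m' : ob hG d' ⟶ ob hG (L.c t')}
    (hm' : ¬ Thru m' (inc hG (L.al t'))) (h : L.H t (L.a (L.n t')))
    (hh : L.hm t (L.bet t' om') h = om) :
    ∃ (P : D) (p : ob hG P ⟶ ob hG d) (q : ob hG P ⟶ ob hG d'),
      IsPB p q (m ≫ G hG t om) (m' ≫ G hG t' om') := by
  obtain ⟨P1, p1, q1, h1⟩ := new_old hG (m' ≫ G hG t' om') (L.bet t' om')
    (Or.inr (not_thru_bet hG t' om' hm'))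
  obtain ⟨P2, p2, q2, h2⟩ := pb_old hG (m ≫ G hG t om) (q1 ≫ L.bet t' om')
  refine ⟨P2, p2, q2 ≫ inc hG p1, ?_, ?_⟩
  · rw [h2.1, inc_comp, Category.assoc, h1.1]
  · intro e a b hab
    have e1 : a ≫ m ≫ G hG t om = (a ≫ m ≫ G hG t h) ≫ inc hG (L.bet t' om') := by
      rw [Category.assoc, Category.assoc, G_inc, hh]
    rw [e1] at hab
    obtain ⟨w, h3, h4⟩ := h1.2 b _ hab.symm
    obtain ⟨w', h5, h6⟩ := h2.2 a w (by rw [e1, ← h4, inc_comp, Category.assoc])
    exact ⟨w', h5, by rw [← Category.assoc, h6, h3]⟩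

/-- All cospans of `D[F]` have pullbacks. -/
theorem pb_all {d : D} {y : D} (x : ob hG d ⟶ ob hG y) : ∀ {d' : D} (x' : ob hG d' ⟶ ob hG y),
    ∃ (P : D) (p : ob hG P ⟶ ob hG d) (q : ob hG P ⟶ ob hG d'), IsPB p q x x' := by
  refine ind_hom hG (P := fun {y} x => ∀ {d' : D} (x' : ob hG d' ⟶ ob hG y),
    ∃ (P : D) (p : ob hG P ⟶ ob hG d) (q : ob hG P ⟶ ob hG d'), IsPB p q x x') ?_ ?_ x
  · intro y g d' x'
    obtain ⟨P, p, q, h⟩ := pb_old hG x' (show d ⟶ y from g)
    exact ⟨P, q, p, h.symm⟩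
  · intro y t om m hm ih d' x'
    rcases cases_hom hG x' with ⟨v, rfl⟩ | ⟨t', om', m', hm', rfl⟩
    · exact pb_old hG _ _
    by_cases hA : (⟨t, om⟩ : Σ t, L.H t y) = ⟨t', om'⟩
    · obtain ⟨rfl, h2⟩ := Sigma.mk.inj_iff.1 hA
      obtain rfl := eq_of_heq h2
      obtain ⟨P, p, q, h⟩ := ih m'
      refine ⟨P, p, q, ?_, ?_⟩
      · rw [← Category.assoc, h.1, Category.assoc]
      · intro e a b hab
        rw [← Category.assoc, ← Category.assoc] at hab
        exact h.2 a b (G_cancel hG _ _ hab)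
    by_cases hB : ∃ h, L.hm t (L.bet t' om') h = om
    · obtain ⟨h, hh⟩ := hB
      exact pb_caseB hG m hm' h hh
    by_cases hC : ∃ h, L.hm t' (L.bet t om) h = om'
    · obtain ⟨h, hh⟩ := hC
      obtain ⟨P, p, q, h⟩ := pb_caseB hG m' hm h hh
      exact ⟨P, q, p, h.symm⟩
    obtain ⟨P1, p1, q1, h1⟩ := new_old hG (m ≫ G hG t om) (L.bet t om)
      (Or.inr (not_thru_bet hG t om hm))
    obtain ⟨P2, p2, q2, h2⟩ := new_old hG (m' ≫ G hG t' om') (L.bet t' om')
      (Or.inr (not_thru_bet hG t' om' hm'))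
    obtain ⟨P, r, s, h3⟩ := hG.pb (q1 ≫ L.bet t om) (q2 ≫ L.bet t' om')
    refine ⟨P, inc hG (r ≫ p1), inc hG (s ≫ p2), ?_, ?_⟩
    · rw [inc_comp, inc_comp, Category.assoc, Category.assoc, h1.1, h2.1, ← inc_comp, ← inc_comp,
        ← inc_comp, ← inc_comp, h3.1]
    · intro e a b hab
      have hab' := hab
      rw [← Category.assoc, ← Category.assoc] at hab'
      by_cases ha : Thru (a ≫ m) (inc hG (L.al t))
      · obtain ⟨k, hk⟩ := ha
        rw [← hk, al_G'] at hab'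
        by_cases hb : Thru (b ≫ m') (inc hG (L.al t'))
        · obtain ⟨k', hk'⟩ := hb
          rw [← hk', al_G'] at hab'
          obtain ⟨w, h4, h5⟩ := h1.2 a k (by rw [← Category.assoc, ← hk, al_G'])
          obtain ⟨w', h6, h7⟩ := h2.2 b k' (by rw [← Category.assoc, ← hk', al_G'])
          obtain ⟨w2, h8, h9⟩ := (inc_pb hG h3).2 w w' (by
            rw [inc_comp, inc_comp, ← Category.assoc, ← Category.assoc, h5, h7, hab'])
          refine ⟨w2, ?_, ?_⟩
          · rw [inc_comp, ← Category.assoc, h8, h4]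
          · rw [inc_comp, ← Category.assoc, h9, h6]
        · obtain ⟨om1, h4, -⟩ := new_fac hG t' om' hb _ k hab'.symm
          exact absurd ⟨om1, h4⟩ hC
      · by_cases hb : Thru (b ≫ m') (inc hG (L.al t'))
        · obtain ⟨k', hk'⟩ := hb
          rw [← hk', al_G'] at hab'
          obtain ⟨om1, h4, -⟩ := new_fac hG t om ha _ k' hab'
          exact absurd ⟨om1, h4⟩ hB
        · obtain ⟨ht, h4, -⟩ := nf_inj hG ha hb hab'
          subst ht
          simp only at h4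
          exact absurd (by rw [h4]) hA

/-- `iota` does not become split in `D[F]`. -/
theorem iota_ns (n : ℕ) : ¬ Thru (𝟙 (ob hG (L.a (n + 1)))) (inc hG (L.io n)) := by
  rintro ⟨k, hk⟩
  obtain ⟨k', -, h⟩ := old_div hG k (L.io n) (𝟙 _) hk
  exact hG.io_ns n ⟨k', h⟩

end Letters

end Vale.Agent.P323.H533
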